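import Vale.Agent.Lib.P074q.Main
import Vale.Agent.Lib.P074q.Easy

/-!
Generic lemmas for the planar exponent one third: existence of optimal maps, and an upper bound
for the first Wasserstein distance between two images of one measure.
-/

open MeasureTheory ENNReal
open scoped NNReal RealInnerProductSpace

namespace Vale.Agent.Lib.P074e

open Vale.Agent.Lib.P074q

variable {d : ℕ}

/-- Existence of a quadratic optimal transport map from the uniform measure on `K` to any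
probability measure concentrated on a compact set. -/
theorem exists_isOTMap {K Y : Set (E d)} (hK : IsCompact K) (hv0 : volume K ≠ 0)
    (hY : IsCompact Y) (hYne : Y.Nonempty)
    (μ : Measure (E d)) [IsProbabilityMeasure μ] (hμY : ∀ᵐ y ∂μ, y ∈ Y) :
    ∃ T : E d → E d, Vale.Agent.Lib.P074c.IsOTMap (Vale.Agent.Lib.P074c.unif K) μ T := by
  classical
  obtain ⟨M0, hM0⟩ := hK.isBounded.exists_norm_le
  obtain ⟨R0, hR0⟩ := hY.isBounded.exists_norm_le
  have hKM : ∀ z ∈ K, ‖z‖ ≤ (M0.toNNReal : ℝ) :=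
    fun z hz => (hM0 z hz).trans (Real.le_coe_toNNReal M0)
  have hYR : ∀ y ∈ Y, ‖y‖ ≤ (R0.toNNReal : ℝ) :=
    fun y hy => (hR0 y hy).trans (Real.le_coe_toNNReal R0)
  set ρ : Measure (E d) := (volume K)⁻¹ • volume.restrict K with hρ
  have hvtop : volume K ≠ ⊤ := hK.measure_lt_top.ne
  have hKne : K.Nonempty := by
    rcases K.eq_empty_or_nonempty with h | h
    · exact absurd (by rw [h]; simp) hv0
    · exact h
  have : IsProbabilityMeasure ρ := isProbabilityMeasure_unif hv0 hvtop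
  have hρac : ρ ≪ volume :=
    (Measure.smul_absolutelyContinuous).trans Measure.restrict_le_self.absolutelyContinuous
  have hρK : ∀ᵐ x ∂ρ, x ∈ K := ae_mem_unif hK.measurableSet
  obtain ⟨b₀, hb₀, hmin⟩ := exists_minimizer hK hKne hY hYne hKM hYR ρ μ hρK hμY
  have hbb : ∃ c, ∀ z ∈ Y, c ≤ b₀ z := exists_lower_bound hY hb₀.continuous
  obtain ⟨T₀, hT₀, huniq0⟩ := exists_unique_maximizer hY hYne hb₀.continuous
  have huniq : ∀ᵐ x ∂ρ, T₀ x ∈ Y ∧ conj Y b₀ x + b₀ (T₀ x) = ⟪x, T₀ x⟫ ∧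
      ∀ y ∈ Y, conj Y b₀ x + b₀ y = ⟪x, y⟫ → y = T₀ x := hρac.ae_le huniq0
  have hmap₀ : ρ.map T₀ = μ :=
    map_eq_of_minimizer hK hY hYne ρ μ hρK hμY hb₀.continuous hmin hT₀ huniq
  refine ⟨T₀, isOTMap_of_subgrad hK hv0 hY μ hμY T₀ hT₀ hmap₀ (conj Y b₀) ?_⟩
  have huniq' : ∀ᵐ x ∂(Vale.Agent.Lib.P074c.unif K), T₀ x ∈ Y ∧
      conj Y b₀ x + b₀ (T₀ x) = ⟪x, T₀ x⟫ ∧
      ∀ y ∈ Y, conj Y b₀ x + b₀ y = ⟪x, y⟫ → y = T₀ x := huniq
  filter_upwards [huniq'] with x hx z _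
  have h1 := le_conj hYR hbb z hx.1
  have h2 := hx.2.1
  have h3 : ⟪T₀ x, z - x⟫ = ⟪z, T₀ x⟫ - ⟪x, T₀ x⟫ := by
    rw [inner_sub_right, real_inner_comm, real_inner_comm x]
  rw [h3]
  linarith

/-- The first Wasserstein distance between two images of one measure is at most the mean
distance of the two maps. -/
theorem wass_one_map_map_le {Ω : Type*} [MeasurableSpace Ω] (π : Measure Ω)
    {F G : Ω → E d} (hF : Measurable F) (hG : Measurable G) :
    Vale.Agent.Lib.P074c.Wass 1 (π.map F) (π.map G) ≤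
      ∫⁻ ω, ENNReal.ofReal ‖F ω - G ω‖ ∂π := by
  rw [wass_one_eq]
  have hFG : Measurable (fun ω => (F ω, G ω)) := hF.prodMk hG
  refine iInf₂_le_of_le (π.map (fun ω => (F ω, G ω))) ⟨?_, ?_⟩ ?_
  · rw [Measure.fst, Measure.map_map measurable_fst hFG]
    rfl
  · rw [Measure.snd, Measure.map_map measurable_snd hFG]
    rfl
  · rw [lintegral_map (by fun_prop) hFG]

end Vale.Agent.Lib.P074e
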