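import Vale.Agent.Lib.P074e.ShiftDiff

open MeasureTheory ENNReal
open scoped NNReal RealInnerProductSpace

namespace Vale.Agent.Lib.P074e
open Vale.Agent.Lib.P074q

variable {d : ℕ}

/-- A slightly shrunk homothetic copy of a convex body: it can be translated by short vectors
inside the body and it fills the body up to a boundary layer of small volume. -/
lemma exists_inner_body {K : Set (E d)} (hK : IsCompact K) (hKc : Convex ℝ K) {x0 : E d} {ρ0 : ℝ}
    (hρ0 : 0 < ρ0) (hball : Metric.closedBall x0 ρ0 ⊆ K) {r : ℝ} (hr0 : 0 < r) (hr : r ≤ ρ0) :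
    ∃ A : Set (E d), MeasurableSet A ∧ A ⊆ K ∧ (∀ w : E d, ‖w‖ ≤ r → ∀ x ∈ A, x + w ∈ K) ∧
      (volume K).toReal - (volume A).toReal ≤ d * (r / ρ0) * (volume K).toReal := by
  set l : ℝ := r / ρ0 with hl
  have hl0 : 0 < l := div_pos hr0 hρ0
  have hl1 : l ≤ 1 := (div_le_one hρ0).mpr hr
  have hx0 : x0 ∈ K := hball (Metric.mem_closedBall_self hρ0.le)
  refine ⟨AffineMap.homothety x0 (1 - l) '' K, ?_, ?_, ?_, ?_⟩
  · exact (hK.image (AffineMap.homothety_continuous x0 (1 - l))).measurableSet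
  · rintro _ ⟨y, hy, rfl⟩
    have : AffineMap.homothety x0 (1 - l) y = (1 - l) • y + l • x0 := by
      rw [AffineMap.homothety_apply]
      simp only [vsub_eq_sub, vadd_eq_add, smul_sub, sub_smul, one_smul]
      abel
    rw [this]
    exact hKc hy hx0 (by linarith) hl0.le (by ring)
  · rintro w hw _ ⟨y, hy, rfl⟩
    have hz : x0 + l⁻¹ • w ∈ K := by
      apply hball
      rw [Metric.mem_closedBall, dist_eq_norm]
      have : x0 + l⁻¹ • w - x0 = l⁻¹ • w := by abel
      rw [this, norm_smul, Real.norm_eq_abs, abs_of_pos (inv_pos.mpr hl0)]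
      rw [inv_mul_le_iff₀ hl0, hl]
      have : r / ρ0 * ρ0 = r := div_mul_cancel₀ r hρ0.ne'
      linarith
    have : AffineMap.homothety x0 (1 - l) y + w = (1 - l) • y + l • (x0 + l⁻¹ • w) := by
      rw [AffineMap.homothety_apply]
      simp only [vsub_eq_sub, vadd_eq_add, smul_sub, sub_smul, one_smul, smul_add, smul_smul]
      rw [mul_inv_cancel₀ hl0.ne', one_smul]
      abel
    rw [this]
    exact hKc hy hz (by linarith) hl0.le (by ring)
  · rw [Measure.addHaar_image_homothety, finrank_euclideanSpace_fin, ENNReal.toReal_mul,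
      ENNReal.toReal_ofReal (abs_nonneg _), abs_of_nonneg (pow_nonneg (by linarith) _)]
    have hb : 1 + (d : ℝ) * (-l) ≤ (1 + (-l)) ^ d := one_add_mul_le_pow (by linarith) d
    have hv : 0 ≤ (volume K).toReal := ENNReal.toReal_nonneg
    have : (1 - l) ^ d = (1 + (-l)) ^ d := by ring
    rw [this]
    nlinarith

/-- the elementary pointwise inequality behind the finite difference argument -/
lemma pointwise_fd {r R ε t t' s s' da da' k k' : ℝ} (hr : 0 < r)
    (ht : |t| ≤ R) (hs : |s| ≤ R)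
    (h1 : r * t ≤ da) (h2 : da ≤ r * t') (h3 : r * s ≤ da') (h4 : da' ≤ r * s')
    (hk : k' - k = da' - da) (hk' : |k'| ≤ ε) :
    r * (s - t) ^ 2 ≤ ((s' - t') * k' - (s - t) * k) +
      (ε + 2 * R * r) * ((t' - t) + (s' - s)) := by
  have hτ : 0 ≤ t' - t := by nlinarith
  have hσ : 0 ≤ s' - s := by nlinarith
  have hR : 0 ≤ R := (abs_nonneg t).trans ht
  -- (s'-t')k' - (s-t)k = (s-t)(k'-k) + ((s'-s)-(t'-t)) k'
  have e1 : (s' - t') * k' - (s - t) * k = (s - t) * (k' - k) + ((s' - s) - (t' - t)) * k' := by ring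
  have e2 : -(ε * ((t' - t) + (s' - s))) ≤ ((s' - s) - (t' - t)) * k' := by
    rw [abs_le] at hk'
    nlinarith [hk'.1, hk'.2]
  have hv : |s - t| ≤ 2 * R := by
    have := abs_sub s t
    linarith
  -- (s-t)(k'-k) >= r (s-t)^2 - 2 R r (tau+sigma)
  have e3 : r * (s - t) ^ 2 - 2 * R * r * ((t' - t) + (s' - s)) ≤ (s - t) * (k' - k) := by
    rw [hk]
    have l1 : -(r * (t' - t)) ≤ (da' - da) - r * (s - t) := by nlinarith
    have l2 : (da' - da) - r * (s - t) ≤ r * (s' - s) := by nlinarith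
    rw [abs_le] at hv
    have e4 : (s - t) * (da' - da) = r * (s - t) ^ 2 + (s - t) * ((da' - da) - r * (s - t)) := by
      ring
    rw [e4]
    have hrτ : 0 ≤ r * (t' - t) := mul_nonneg hr.le hτ
    have hrσ : 0 ≤ r * (s' - s) := mul_nonneg hr.le hσ
    rcases le_total 0 (s - t) with hp | hn
    · nlinarith [hv.1, hv.2]
    · nlinarith [hv.1, hv.2]
  rw [e1]
  nlinarith

/-- bounded measurable functions are integrable on `A ⊆ K`, also after a shift staying in `K` -/
lemma shift_integrable {K A : Set (E d)} (hKm : MeasurableSet K) (hA : MeasurableSet A)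
    (hKfin : volume K ≠ ⊤)
    (w : E d) (hAK : A ⊆ K) (hAw : ∀ x ∈ A, x + w ∈ K) {f : E d → ℝ} (hf : Measurable f) {B : ℝ}
    (hB : ∀ᵐ x ∂(volume.restrict K), |f x| ≤ B) :
    IntegrableOn f A volume ∧ IntegrableOn (fun x => f (x + w)) A volume := by
  have hAfin : volume A ≠ ⊤ := ((measure_mono hAK).trans_lt hKfin.lt_top).ne
  have : IsFiniteMeasure (volume.restrict A) := ⟨by simpa using hAfin.lt_top⟩
  constructor
  · exact Integrable.of_bound hf.aestronglyMeasurable B
      ((ae_restrict_of_ae_restrict_of_subset hAK hB).mono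
        (fun x hx => by rwa [Real.norm_eq_abs]))
  · refine Integrable.of_bound (hf.comp (measurable_add_const w)).aestronglyMeasurable B ?_
    have h1 : ∀ᵐ y ∂(volume : Measure (E d)), y ∈ K → |f y| ≤ B :=
      (ae_restrict_iff' hKm).mp hB
    have h2 : ∀ᵐ x ∂(volume : Measure (E d)), x + w ∈ K → |f (x + w)| ≤ B :=
      (measurePreserving_add_right (volume : Measure (E d)) w).quasiMeasurePreserving.ae h1
    rw [ae_restrict_iff' hA]
    filter_upwards [h2] with x hx hxA
    rw [Real.norm_eq_abs]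
    exact hx (hAw x hxA)

lemma abs_coord_le (y : E d) (j : Fin d) : |y j| ≤ ‖y‖ := by
  have h1 : ‖y j‖ ≤ ‖y‖ := PiLp.norm_apply_le y j
  simpa using h1

lemma inner_single_right_real (j : Fin d) (r : ℝ) (y : E d) :
    ⟪(EuclideanSpace.single j r : E d), y⟫ = r * y j := by
  simp [EuclideanSpace.inner_single_left]

/-- The coordinate estimate on the inner body. -/
theorem coord_est {K Y A : Set (E d)} {M R : ℝ≥0} (hKm : MeasurableSet K) (hKfin : volume K ≠ ⊤)
    (hYR : ∀ y ∈ Y, ‖y‖ ≤ R)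
    (hA : MeasurableSet A) (hAK : A ⊆ K) {r : ℝ} (hr : 0 < r) (j : Fin d)
    (hAw : ∀ x ∈ A, x + EuclideanSpace.single j r ∈ K)
    {T S : E d → E d} (hT : Measurable T) (hS : Measurable S)
    {a b a' b' : E d → ℝ} (h1 : PotPair Y M R a b) (h2 : PotPair Y M R a' b')
    (hTY : ∀ᵐ x ∂(volume.restrict K), T x ∈ Y) (hSY : ∀ᵐ x ∂(volume.restrict K), S x ∈ Y)
    (t1 : ∀ᵐ x ∂(volume.restrict K), a x + b (T x) = ⟪x, T x⟫)
    (t2 : ∀ᵐ x ∂(volume.restrict K), a' x + b' (S x) = ⟪x, S x⟫)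
    {c ε : ℝ} (hk : ∀ x ∈ K, |a' x - a x - c| ≤ ε) :
    r * ∫ x in A, (S x j - T x j) ^ 2 ≤
      (8 * R * ε + 8 * R ^ 2 * r) * ((volume K).toReal - (volume A).toReal) := by
  set w : E d := EuclideanSpace.single j r with hw
  set β : ℝ := (volume K).toReal - (volume A).toReal with hβ
  have hβ0 : 0 ≤ β := by
    have := ENNReal.toReal_mono hKfin (measure_mono hAK)
    linarith
  set tj : E d → ℝ := fun x => T x j with htj
  set sj : E d → ℝ := fun x => S x j with hsj
  set k : E d → ℝ := fun x => a' x - a x - c with hkdef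
  set F : E d → ℝ := fun x => (sj x - tj x) * k x with hF
  have mtj : Measurable tj := (EuclideanSpace.proj j).continuous.measurable.comp hT
  have msj : Measurable sj := (EuclideanSpace.proj j).continuous.measurable.comp hS
  have mk : Measurable k :=
    ((h2.lipa.continuous.sub h1.lipa.continuous).sub continuous_const).measurable
  have mF : Measurable F := (msj.sub mtj).mul mk
  have btj : ∀ᵐ x ∂(volume.restrict K), |tj x| ≤ R :=
    hTY.mono (fun x hx => (abs_coord_le _ j).trans (hYR _ hx))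
  have bsj : ∀ᵐ x ∂(volume.restrict K), |sj x| ≤ R :=
    hSY.mono (fun x hx => (abs_coord_le _ j).trans (hYR _ hx))
  rcases K.eq_empty_or_nonempty with hKe | ⟨xK, hxK⟩
  · have hAe : A = ∅ := by
      rw [hKe] at hAK
      exact Set.subset_empty_iff.mp hAK
    simp [hβ, hKe, hAe]
  have hε : 0 ≤ ε := (abs_nonneg _).trans (hk xK hxK)
  have hR0 : (0 : ℝ) ≤ R := R.coe_nonneg
  have bF : ∀ᵐ x ∂(volume.restrict K), |F x| ≤ 2 * R * ε := by
    filter_upwards [btj, bsj, ae_restrict_mem hKm] with x h3 h4 hx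
    simp only [hF, abs_mul]
    have h5 : |sj x - tj x| ≤ 2 * R := by
      have := abs_sub (sj x) (tj x)
      linarith
    exact mul_le_mul h5 (hk x hx) (abs_nonneg _) (by positivity)
  -- good points
  have hG : ∀ᵐ x ∂(volume.restrict K), (T x ∈ Y ∧ S x ∈ Y) ∧
      (a x + b (T x) = ⟪x, T x⟫ ∧ a' x + b' (S x) = ⟪x, S x⟫) := by
    filter_upwards [hTY, hSY, t1, t2] with x g1 g2 g3 g4
    exact ⟨⟨g1, g2⟩, g3, g4⟩
  have hGA := ae_restrict_of_ae_restrict_of_subset hAK hG
  have hGAw : ∀ᵐ x ∂(volume.restrict A), (T (x + w) ∈ Y ∧ S (x + w) ∈ Y) ∧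
      (a (x + w) + b (T (x + w)) = ⟪x + w, T (x + w)⟫ ∧
        a' (x + w) + b' (S (x + w)) = ⟪x + w, S (x + w)⟫) := by
    have g1 := (ae_restrict_iff' hKm).mp hG
    have g2 := (measurePreserving_add_right (volume : Measure (E d)) w).quasiMeasurePreserving.ae g1
    rw [ae_restrict_iff' hA]
    filter_upwards [g2] with x hx hxA
    exact hx (hAw x hxA)
  have key : ∀ᵐ x ∂(volume.restrict A), r * (sj x - tj x) ^ 2 ≤
      (F (x + w) - F x) + (ε + 2 * R * r) * ((tj (x + w) - tj x) + (sj (x + w) - sj x)) := by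
    filter_upwards [hGA, hGAw, ae_restrict_mem hA] with x g g' hxA
    obtain ⟨⟨g1, g2⟩, g3, g4⟩ := g
    obtain ⟨⟨g1', g2'⟩, g3', g4'⟩ := g'
    have f1 := h1.fy (x + w) (T x) g1
    have f2 := h1.fy x (T (x + w)) g1'
    have f3 := h2.fy (x + w) (S x) g2
    have f4 := h2.fy x (S (x + w)) g2'
    rw [inner_add_left, hw, inner_single_right_real] at f1 f3 g3' g4'
    refine pointwise_fd (da := a (x + w) - a x) (da' := a' (x + w) - a' x) hr
      ((abs_coord_le _ j).trans (hYR _ g1)) ((abs_coord_le _ j).trans (hYR _ g2)) ?_ ?_ ?_ ?_ ?_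
      (hk _ (hAw x hxA))
    · simp only [htj, hw]; linarith
    · simp only [htj, hw]; linarith
    · simp only [hsj, hw]; linarith
    · simp only [hsj, hw]; linarith
    · simp only [hkdef]; ring
  obtain ⟨iF, iFw⟩ := shift_integrable hKm hA hKfin w hAK hAw mF bF
  obtain ⟨it, itw⟩ := shift_integrable hKm hA hKfin w hAK hAw mtj btj
  obtain ⟨is, isw⟩ := shift_integrable hKm hA hKfin w hAK hAw msj bsj
  have dF := shift_diff hA hKfin w hAK hAw mF bF
  have dt := shift_diff hA hKfin w hAK hAw mtj btj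
  have ds := shift_diff hA hKfin w hAK hAw msj bsj
  have hint : ∫ x in A, r * (sj x - tj x) ^ 2 ≤
      ∫ x in A, ((F (x + w) - F x) +
        (ε + 2 * R * r) * ((tj (x + w) - tj x) + (sj (x + w) - sj x))) := by
    apply integral_mono_of_nonneg
    · exact Filter.Eventually.of_forall (fun x => by positivity)
    · exact (iFw.sub iF).add (((itw.sub it).add (isw.sub is)).const_mul _)
    · exact key
  rw [integral_const_mul] at hint
  have e1 : ∫ x in A, ((F (x + w) - F x) +
        (ε + 2 * R * r) * ((tj (x + w) - tj x) + (sj (x + w) - sj x))) =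
      ((∫ x in A, F (x + w)) - ∫ x in A, F x) + (ε + 2 * R * r) *
        (((∫ x in A, tj (x + w)) - ∫ x in A, tj x) + ((∫ x in A, sj (x + w)) - ∫ x in A, sj x)) := by
    have i1 : Integrable (fun x => F (x + w) - F x) (volume.restrict A) := iFw.sub iF
    have i2 : Integrable (fun x => tj (x + w) - tj x) (volume.restrict A) := itw.sub it
    have i3 : Integrable (fun x => sj (x + w) - sj x) (volume.restrict A) := isw.sub is
    have i4 : Integrable (fun x => (tj (x + w) - tj x) + (sj (x + w) - sj x))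
        (volume.restrict A) := i2.add i3
    have i5 : Integrable (fun x => (ε + 2 * R * r) * ((tj (x + w) - tj x) + (sj (x + w) - sj x)))
        (volume.restrict A) := i4.const_mul _
    rw [integral_add i1 i5, integral_sub iFw iF, integral_const_mul, integral_add i2 i3,
      integral_sub itw it, integral_sub isw is]
  rw [e1] at hint
  have hc : 0 ≤ ε + 2 * R * r := by positivity
  have dF' := (le_abs_self _).trans dF
  have dt' := (le_abs_self _).trans dt
  have ds' := (le_abs_self _).trans ds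
  rw [← hβ] at dF' dt' ds'
  have h5 : (ε + 2 * R * r) *
        (((∫ x in A, tj (x + w)) - ∫ x in A, tj x) + ((∫ x in A, sj (x + w)) - ∫ x in A, sj x)) ≤
      (ε + 2 * R * r) * (2 * R * β + 2 * R * β) :=
    mul_le_mul_of_nonneg_left (add_le_add dt' ds') hc
  calc r * ∫ x in A, (S x j - T x j) ^ 2 ≤ 2 * (2 * R * ε) * β +
        (ε + 2 * R * r) * (2 * R * β + 2 * R * β) := by
        have : (∫ x in A, (S x j - T x j) ^ 2) = ∫ x in A, (sj x - tj x) ^ 2 := rfl
        rw [this]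
        linarith
    _ = (8 * R * ε + 8 * R ^ 2 * r) * β := by ring

lemma le_of_forall_small {X P Q ρ0 : ℝ} (hρ0 : 0 < ρ0) (hQ : 0 ≤ Q)
    (h : ∀ r, 0 < r → r ≤ ρ0 → X ≤ P + Q * r) : X ≤ P := by
  by_contra hlt
  push Not at hlt
  have hpos : 0 < X - P := by linarith
  have hr0 : 0 < min ρ0 ((X - P) / (2 * (Q + 1))) := lt_min hρ0 (by positivity)
  have h1 := h _ hr0 (min_le_left _ _)
  have h2 : min ρ0 ((X - P) / (2 * (Q + 1))) ≤ (X - P) / (2 * (Q + 1)) := min_le_right _ _
  have h3 := mul_le_mul_of_nonneg_left h2 hQ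
  have h4 : Q * ((X - P) / (2 * (Q + 1))) ≤ (X - P) / 2 := by
    rw [← mul_div_assoc, div_le_iff₀ (by positivity)]
    nlinarith
  linarith

/-- One coordinate, on the whole body. -/
theorem coord_est_K {K Y : Set (E d)} {M R : ℝ≥0} (hK : IsCompact K) (hKc : Convex ℝ K)
    {x0 : E d} {ρ0 : ℝ} (hρ0 : 0 < ρ0) (hball : Metric.closedBall x0 ρ0 ⊆ K)
    (hYR : ∀ y ∈ Y, ‖y‖ ≤ R) (j : Fin d)
    {T S : E d → E d} (hT : Measurable T) (hS : Measurable S)
    {a b a' b' : E d → ℝ} (h1 : PotPair Y M R a b) (h2 : PotPair Y M R a' b')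
    (hTY : ∀ᵐ x ∂(volume.restrict K), T x ∈ Y) (hSY : ∀ᵐ x ∂(volume.restrict K), S x ∈ Y)
    (t1 : ∀ᵐ x ∂(volume.restrict K), a x + b (T x) = ⟪x, T x⟫)
    (t2 : ∀ᵐ x ∂(volume.restrict K), a' x + b' (S x) = ⟪x, S x⟫)
    {c ε : ℝ} (hk : ∀ x ∈ K, |a' x - a x - c| ≤ ε) :
    ∫ x in K, (S x j - T x j) ^ 2 ≤ 8 * R * ε * (d / ρ0 * (volume K).toReal) := by
  have hKm := hK.measurableSet
  have hKfin : volume K ≠ ⊤ := hK.measure_lt_top.ne
  have hx0 : x0 ∈ K := hball (Metric.mem_closedBall_self hρ0.le)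
  have hε : 0 ≤ ε := (abs_nonneg _).trans (hk x0 hx0)
  have hR0 : (0 : ℝ) ≤ R := R.coe_nonneg
  set V : ℝ := (volume K).toReal with hV
  have hV0 : 0 ≤ V := ENNReal.toReal_nonneg
  have mv : Measurable (fun x => (S x j - T x j) ^ 2) :=
    (((EuclideanSpace.proj j).continuous.measurable.comp hS).sub
      ((EuclideanSpace.proj j).continuous.measurable.comp hT)).pow_const 2
  have bv : ∀ᵐ x ∂(volume.restrict K), |(S x j - T x j) ^ 2| ≤ 4 * R ^ 2 := by
    filter_upwards [hTY, hSY] with x g1 g2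
    have b1 := (abs_coord_le (T x) j).trans (hYR _ g1)
    have b2 := (abs_coord_le (S x) j).trans (hYR _ g2)
    rw [abs_of_nonneg (by positivity)]
    rw [abs_le] at b1 b2
    nlinarith [b1.1, b1.2, b2.1, b2.2]
  apply le_of_forall_small hρ0 (Q := 12 * R ^ 2 * (d / ρ0 * V)) (by positivity)
  intro r hr0 hr
  obtain ⟨A, hA, hAK, hAw, hβ⟩ := exists_inner_body hK hKc hρ0 hball hr0 hr
  have hwn : ‖(EuclideanSpace.single j r : E d)‖ ≤ r := by
    rw [PiLp.norm_single, Real.norm_eq_abs, abs_of_pos hr0]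
  have h3 := coord_est hKm hKfin hYR hA hAK hr0 j (hAw _ hwn) hT hS h1 h2 hTY hSY t1 t2 hk
  have h4 := (le_abs_self _).trans (sub_integral_le hA hKfin hAK mv bv)
  set β : ℝ := (volume K).toReal - (volume A).toReal with hβdef
  have hβ' : β ≤ r * (d / ρ0 * V) := by
    calc β ≤ d * (r / ρ0) * V := hβ
      _ = r * (d / ρ0 * V) := by ring
  have h5 : r * ∫ x in A, (S x j - T x j) ^ 2 ≤
      r * ((8 * R * ε + 8 * R ^ 2 * r) * (d / ρ0 * V)) := by
    calc r * ∫ x in A, (S x j - T x j) ^ 2 ≤ (8 * R * ε + 8 * R ^ 2 * r) * β := h3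
      _ ≤ (8 * R * ε + 8 * R ^ 2 * r) * (r * (d / ρ0 * V)) :=
        mul_le_mul_of_nonneg_left hβ' (by positivity)
      _ = r * ((8 * R * ε + 8 * R ^ 2 * r) * (d / ρ0 * V)) := by ring
  have h6 := le_of_mul_le_mul_left h5 hr0
  have h7 : 4 * (R : ℝ) ^ 2 * β ≤ 4 * R ^ 2 * (r * (d / ρ0 * V)) :=
    mul_le_mul_of_nonneg_left hβ' (by positivity)
  calc ∫ x in K, (S x j - T x j) ^ 2
      ≤ (∫ x in A, (S x j - T x j) ^ 2) + 4 * R ^ 2 * β := by linarith
    _ ≤ (8 * R * ε + 8 * R ^ 2 * r) * (d / ρ0 * V) + 4 * R ^ 2 * (r * (d / ρ0 * V)) := by linarith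
    _ = 8 * R * ε * (d / ρ0 * V) + 12 * R ^ 2 * (d / ρ0 * V) * r := by ring

/-- **Sup-norm closeness of the potentials implies `L²` closeness of the maps, with a linear rate.**
Dimension free; `ρ` is the uniform probability measure on the convex body `K`. -/
theorem e1_of_e3 (K : Set (E d)) (hK : IsCompact K) (hKc : Convex ℝ K)
    (hKi : (interior K).Nonempty) (R : ℝ≥0) :
    ∃ C : ℝ≥0, ∀ (Y : Set (E d)) (M : ℝ≥0) (T S : E d → E d) (a b a' b' : E d → ℝ),
      (∀ y ∈ Y, ‖y‖ ≤ R) → Measurable T → Measurable S →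
      (∀ᵐ x ∂((volume K)⁻¹ • volume.restrict K), T x ∈ Y) →
      (∀ᵐ x ∂((volume K)⁻¹ • volume.restrict K), S x ∈ Y) →
      PotPair Y M R a b → PotPair Y M R a' b' →
      Tight ((volume K)⁻¹ • volume.restrict K) T a b →
      Tight ((volume K)⁻¹ • volume.restrict K) S a' b' →
      ∀ c ε : ℝ, (∀ x ∈ K, |a' x - a x - c| ≤ ε) →
      ∫ x, ‖T x - S x‖ ^ 2 ∂((volume K)⁻¹ • volume.restrict K) ≤ C * ε := by
  obtain ⟨x0, hx0⟩ := hKi
  obtain ⟨ρ0, hρ0, hball⟩ := Metric.nhds_basis_closedBall.mem_iff.mp (mem_interior_iff_mem_nhds.mp hx0)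
  have hv0 : volume K ≠ 0 :=
    (Measure.measure_pos_of_nonempty_interior volume ⟨x0, hx0⟩).ne'
  have hvT : volume K ≠ ⊤ := hK.measure_lt_top.ne
  have hc0 : (volume K)⁻¹ ≠ 0 := ENNReal.inv_ne_zero.mpr hvT
  refine ⟨(8 * R * (d * (d / ρ0.toNNReal)) : ℝ≥0), ?_⟩
  intro Y M T S a b a' b' hYR hT hS hTY hSY h1 h2 t1 t2 c ε hk
  unfold Tight at t1 t2
  rw [Measure.ae_ennreal_smul_measure_iff hc0] at hTY hSY t1 t2
  have hV : 0 < (volume K).toReal := ENNReal.toReal_pos hv0 hvT
  have hco := fun j => coord_est_K hK hKc hρ0 hball hYR j hT hS h1 h2 hTY hSY t1 t2 hk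
  rw [integral_smul_measure, ENNReal.toReal_inv, smul_eq_mul]
  have hKfin : IsFiniteMeasure (volume.restrict K) := ⟨by simpa using hvT.lt_top⟩
  have iv : ∀ j : Fin d, Integrable (fun x => (S x j - T x j) ^ 2) (volume.restrict K) := by
    intro j
    have mv : Measurable (fun x => (S x j - T x j) ^ 2) :=
      (((EuclideanSpace.proj j).continuous.measurable.comp hS).sub
        ((EuclideanSpace.proj j).continuous.measurable.comp hT)).pow_const 2
    refine Integrable.of_bound mv.aestronglyMeasurable (4 * R ^ 2) ?_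
    filter_upwards [hTY, hSY] with x g1 g2
    have b1 := (abs_coord_le (T x) j).trans (hYR _ g1)
    have b2 := (abs_coord_le (S x) j).trans (hYR _ g2)
    rw [Real.norm_eq_abs, abs_of_nonneg (by positivity)]
    rw [abs_le] at b1 b2
    nlinarith [b1.1, b1.2, b2.1, b2.2]
  have e1 : ∫ x in K, ‖T x - S x‖ ^ 2 = ∑ j : Fin d, ∫ x in K, (S x j - T x j) ^ 2 := by
    rw [← integral_finsetSum _ (fun j _ => iv j)]
    congr 1
    ext x
    rw [EuclideanSpace.norm_sq_eq]
    apply Finset.sum_congr rfl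
    intro j _
    rw [Real.norm_eq_abs, sq_abs]
    simp only [PiLp.sub_apply]
    ring
  rw [e1]
  have e2 : ∑ j : Fin d, ∫ x in K, (S x j - T x j) ^ 2 ≤
      ∑ _j : Fin d, 8 * R * ε * (d / ρ0 * (volume K).toReal) := Finset.sum_le_sum (fun j _ => hco j)
  rw [Finset.sum_const, Finset.card_univ, Fintype.card_fin, nsmul_eq_mul] at e2
  have e3 := mul_le_mul_of_nonneg_left e2 (inv_nonneg.mpr hV.le)
  refine e3.trans (le_of_eq ?_)
  push_cast
  rw [Real.coe_toNNReal _ hρ0.le]
  field_simp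

end Vale.Agent.Lib.P074e
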