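import Mathlib

/-!
Abstract two-point maximum principle (pure real analysis) used for the planar sup-norm
stability of Kantorovich potentials.
-/

open MeasureTheory Set

namespace Vale.Agent.Lib.P074e

/-- Second difference of the positive part. -/
lemma pospart_second_diff (u h : ℝ) (hh : 0 ≤ h) :
    max (u + h) 0 + max (u - h) 0 - 2 * max u 0 = max (h - |u|) 0 := by
  rcases le_total 0 u with hu | hu
  · rw [abs_of_nonneg hu, max_eq_left hu, max_eq_left (show (0:ℝ) ≤ u + h by linarith)]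
    rcases le_total h u with h1 | h1
    · rw [max_eq_left (show (0:ℝ) ≤ u - h by linarith), max_eq_right (show h - u ≤ 0 by linarith)]
      ring
    · rw [max_eq_right (show u - h ≤ 0 by linarith), max_eq_left (show (0:ℝ) ≤ h - u by linarith)]
      ring
  · rw [abs_of_nonpos hu, max_eq_right hu, max_eq_right (show u - h ≤ 0 by linarith)]
    rcases le_total h (-u) with h1 | h1
    · rw [max_eq_right (show u + h ≤ 0 by linarith), max_eq_right (show h - -u ≤ 0 by linarith)]
      ring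
    · rw [max_eq_left (show (0:ℝ) ≤ u + h by linarith), max_eq_left (show (0:ℝ) ≤ h - -u by linarith)]
      ring

lemma intervalIntegrable_sub {f : ℝ → ℝ} {a0 b0 : ℝ} (hab : a0 ≤ b0)
    (hf : IntervalIntegrable f volume a0 b0) {c d : ℝ} (hc : c ∈ Icc a0 b0) (hd : d ∈ Icc a0 b0) :
    IntervalIntegrable f volume c d := by
  apply hf.mono_set
  rw [uIcc_of_le hab]
  exact uIcc_subset_Icc hc hd

/-- Symmetric difference of integrals around `x`, lower bound. -/
lemma sym_diff_lower {f : ℝ → ℝ} {a0 b0 x h dl : ℝ} (hab : a0 ≤ b0)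
    (hf : IntervalIntegrable f volume a0 b0) (hh : 0 ≤ h) (h1 : a0 ≤ x - h) (h2 : x + h ≤ b0)
    (hpt : ∀ s ∈ Ioc 0 h, -(2 * dl * s) ≤ f (x + s) - f (x - s)) :
    -(dl * h ^ 2) ≤ (∫ s in x..(x + h), f s) - ∫ s in (x - h)..x, f s := by
  have hx : x ∈ Icc a0 b0 := ⟨by linarith, by linarith⟩
  have hxp : x + h ∈ Icc a0 b0 := ⟨by linarith, h2⟩
  have hxm : x - h ∈ Icc a0 b0 := ⟨h1, by linarith⟩
  have e1 : ∫ s in (0:ℝ)..h, f (x + s) = ∫ s in x..(x + h), f s := by
    rw [intervalIntegral.integral_comp_add_left]; simp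
  have e2 : ∫ s in (0:ℝ)..h, f (x - s) = ∫ s in (x - h)..x, f s := by
    rw [intervalIntegral.integral_comp_sub_left]; simp
  have i1 : IntervalIntegrable (fun s => f (x + s)) volume 0 h := by
    have := (intervalIntegrable_sub hab hf hx hxp).comp_add_left x
    simpa using this
  have i2 : IntervalIntegrable (fun s => f (x - s)) volume 0 h := by
    have := (intervalIntegrable_sub hab hf hx hxm).comp_sub_left x
    simpa using this
  rw [← e1, ← e2, ← intervalIntegral.integral_sub i1 i2]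
  have e3 : ∫ s in (0:ℝ)..h, -(2 * dl * s) = -(dl * h ^ 2) := by
    rw [intervalIntegral.integral_neg, intervalIntegral.integral_const_mul, integral_id]
    ring
  rw [← e3]
  apply intervalIntegral.integral_mono_on hh
  · exact (continuous_const.mul continuous_id).neg.intervalIntegrable _ _
  · exact i1.sub i2
  · intro s hs
    rcases eq_or_lt_of_le hs.1 with h0 | h0
    · subst h0; simp
    · exact hpt s ⟨h0, hs.2⟩

/-- Symmetric difference of integrals around `x`, upper bound. -/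
lemma sym_diff_upper {f : ℝ → ℝ} {a0 b0 x h dl : ℝ} (hab : a0 ≤ b0)
    (hf : IntervalIntegrable f volume a0 b0) (hh : 0 ≤ h) (h1 : a0 ≤ x - h) (h2 : x + h ≤ b0)
    (hpt : ∀ s ∈ Ioc 0 h, f (x + s) - f (x - s) ≤ 2 * dl * s) :
    (∫ s in x..(x + h), f s) - ∫ s in (x - h)..x, f s ≤ dl * h ^ 2 := by
  have := sym_diff_lower (f := fun s => - f s) (dl := dl) hab hf.neg hh h1 h2
    (by intro s hs; have := hpt s hs; linarith)
  simp only [intervalIntegral.integral_neg] at this
  linarith


/-- The strict version (`dl < dl'`) of the two-point maximum principle. -/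
theorem two_point_max_aux {ι : Type*} [Fintype ι] (t m : ι → ℝ) (L L' : ι → ℝ → ℝ)
    (p : ι → ℝ → ℝ) (p0 : ℝ → ℝ) {a0 b0 dl dl' : ℝ} (hab : a0 < b0) (hdl : dl < dl')
    (hp0 : IntervalIntegrable p0 volume a0 b0) (hp : ∀ i, IntervalIntegrable (p i) volume a0 b0)
    (hLc : ∀ i, ContinuousOn (L i) (Icc a0 b0)) (hLc' : ∀ i, ContinuousOn (L' i) (Icc a0 b0))
    (hLr : ∀ i, ∀ x ∈ Icc a0 b0, 0 ≤ L i x ∧ L i x ≤ m i)
    (hLr' : ∀ i, ∀ x ∈ Icc a0 b0, 0 ≤ L' i x ∧ L' i x ≤ m i)
    (hLa : ∀ i, L i a0 = 0 ∧ L' i a0 = 0) (hLb : ∀ i, L i b0 = m i ∧ L' i b0 = m i)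
    (hsum : ∀ x ∈ Icc a0 b0, ∑ i, L i x = ∑ i, L' i x)
    (hQ : ∀ a b, a0 ≤ a → a ≤ b → b ≤ b0 → ∀ i, ∫ s in a..b, p i s =
      (∫ s in a..b, p0 s) - ∑ j, ((L' j b - L' j a) - (L j b - L j a)) * max (t i - t j) 0)
    (hup : ∀ i, ∀ x ∈ Ioo a0 b0, 0 < L' i x → L i x < m i →
      ∃ h0 > 0, ∀ s ∈ Ioc 0 h0, -(2 * dl * s) ≤ p i (x + s) - p i (x - s))
    (hdn : ∀ i, ∀ x ∈ Ioo a0 b0, 0 < L i x → L' i x < m i →
      ∃ h0 > 0, ∀ s ∈ Ioc 0 h0, p i (x + s) - p i (x - s) ≤ 2 * dl * s)
    (hN : ∀ x ∈ Ioo a0 b0, ∃ i, 0 < L i x ∧ L i x < m i)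
    (hnorm : ∫ s in a0..b0, p0 s = 0) :
    ∀ i a b, a0 ≤ a → a ≤ b → b ≤ b0 →
      ∫ s in a..b, p i s ≤ dl' * ((b - a) * ((b0 - a0) - (b - a)) / 2) := by
  classical
  have hab' : a0 ≤ b0 := hab.le
  -- abbreviations
  set Φ : ℝ → ℝ := fun x => ∫ s in a0..x, p0 s with hΦ
  set dd : ι → ℝ → ℝ → ℝ := fun j a b => (L' j b - L' j a) - (L j b - L j a) with hdd
  set θ : ℝ → ℝ := fun r => r * ((b0 - a0) - r) / 2 with hθ
  set W : ℝ → ℝ → ℝ → ℝ := fun a b τ =>
    (Φ b - Φ a) - ∑ j, dd j a b * max (τ - t j) 0 - dl' * θ (b - a) with hW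
  set R : ℝ := ∑ j, |t j| with hR
  have htR : ∀ j, |t j| ≤ R := fun j =>
    Finset.single_le_sum (f := fun j => |t j|) (fun _ _ => abs_nonneg _) (Finset.mem_univ j)
  have hR0 : 0 ≤ R := Finset.sum_nonneg (fun _ _ => abs_nonneg _)
  have hΦc : ContinuousOn Φ (Icc a0 b0) := by
    have := intervalIntegral.continuousOn_primitive_interval (μ := volume) (f := p0) (a := a0)
      (b := b0) (by rw [uIcc_of_le hab']; exact (intervalIntegrable_iff_integrableOn_Icc_of_le hab').1 hp0)
    rwa [uIcc_of_le hab'] at this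
  have hΦd : ∀ a b, a ∈ Icc a0 b0 → b ∈ Icc a0 b0 → Φ b - Φ a = ∫ s in a..b, p0 s := by
    intro a b ha hb
    exact intervalIntegral.integral_interval_sub_left
      (intervalIntegrable_sub hab' hp0 (left_mem_Icc.2 hab') hb)
      (intervalIntegrable_sub hab' hp0 (left_mem_Icc.2 hab') ha)
  have hWrow : ∀ a b, a0 ≤ a → a ≤ b → b ≤ b0 → ∀ i,
      W a b (t i) = (∫ s in a..b, p i s) - dl' * θ (b - a) := by
    intro a b h1 h2 h3 i
    simp only [hW]
    rw [hΦd a b ⟨h1, h2.trans h3⟩ ⟨h1.trans h2, h3⟩, hQ a b h1 h2 h3 i]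
  have hdsum : ∀ a b, a ∈ Icc a0 b0 → b ∈ Icc a0 b0 → ∑ j, dd j a b = 0 := by
    intro a b ha hb
    simp only [hdd, Finset.sum_sub_distrib]
    rw [hsum a ha, hsum b hb]; ring
  -- the compact domain and a maximiser
  set D : Set (ℝ × ℝ × ℝ) :=
    (Icc a0 b0 ×ˢ (Icc a0 b0 ×ˢ Icc (-R) R)) ∩ {q | q.1 ≤ q.2.1} with hD
  have hDc : IsCompact D :=
    (isCompact_Icc.prod (isCompact_Icc.prod isCompact_Icc)).inter_right
      (isClosed_le continuous_fst (continuous_fst.comp continuous_snd))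
  have hDne : D.Nonempty :=
    ⟨(a0, a0, 0), ⟨⟨left_mem_Icc.2 hab', left_mem_Icc.2 hab', by simpa using hR0, hR0⟩, show a0 ≤ a0 from le_refl _⟩⟩
  have c1 : ∀ f : ℝ → ℝ, ContinuousOn f (Icc a0 b0) →
      ContinuousOn (fun q : ℝ × ℝ × ℝ => f q.1) D := by
    intro f hf
    exact hf.comp continuous_fst.continuousOn (fun q hq => hq.1.1)
  have c2 : ∀ f : ℝ → ℝ, ContinuousOn f (Icc a0 b0) →
      ContinuousOn (fun q : ℝ × ℝ × ℝ => f q.2.1) D := by
    intro f hf
    exact hf.comp (continuous_fst.comp continuous_snd).continuousOn (fun q hq => hq.1.2.1)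
  have hWc : ContinuousOn (fun q : ℝ × ℝ × ℝ => W q.1 q.2.1 q.2.2) D := by
    simp only [hW, hdd, hθ]
    apply ContinuousOn.sub
    · apply ContinuousOn.sub
      · exact (c2 _ hΦc).sub (c1 _ hΦc)
      · apply continuousOn_finsetSum
        intro j _
        apply ContinuousOn.mul
        · exact ((c2 _ (hLc' j)).sub (c1 _ (hLc' j))).sub ((c2 _ (hLc j)).sub (c1 _ (hLc j)))
        · exact Continuous.continuousOn (by fun_prop)
    · exact Continuous.continuousOn (by fun_prop)
  obtain ⟨⟨a, b, τs⟩, hqD, hmax⟩ := hDc.exists_isMaxOn hDne hWc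
  have ha : a ∈ Icc a0 b0 := hqD.1.1
  have hb : b ∈ Icc a0 b0 := hqD.1.2.1
  have hable : a ≤ b := hqD.2
  set M : ℝ := W a b τs with hM
  have hle : ∀ a' b' τ, a0 ≤ a' → a' ≤ b' → b' ≤ b0 → τ ∈ Icc (-R) R → W a' b' τ ≤ M := by
    intro a' b' τ h1 h2 h3 h4
    exact hmax (show ((a', b', τ) : ℝ × ℝ × ℝ) ∈ D from
      ⟨⟨⟨h1, h2.trans h3⟩, ⟨h1.trans h2, h3⟩, h4⟩, h2⟩)
  have htmem : ∀ i, t i ∈ Icc (-R) R := fun i => abs_le.1 (htR i)
  -- it is enough to show `M ≤ 0`
  suffices hM0 : M ≤ 0 by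
    intro i a' b' h1 h2 h3
    have := hle a' b' (t i) h1 h2 h3 (htmem i)
    rw [hWrow a' b' h1 h2 h3 i] at this
    simp only [hθ] at this
    linarith
  by_contra hMpos
  replace hMpos : 0 < M := not_le.1 hMpos
  -- trivial parts of the boundary
  have hlt : a < b := by
    rcases eq_or_lt_of_le hable with h | h
    · exfalso
      have : M = 0 := by
        simp only [hM, hW, hdd, hθ, h]; simp
      linarith
    · exact h
  have hnot : ¬ (a = a0 ∧ b = b0) := by
    rintro ⟨h1, h2⟩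
    have : M = 0 := by
      simp only [hM, hW, hdd, hθ, h1, h2, (hLa _).1, (hLa _).2, (hLb _).1, (hLb _).2, hΦ, hnorm]
      simp
    linarith
  -- the key dichotomies at a row which is a maximum point
  have key : ∀ i, W a b (t i) = M →
      (L' i b = 0 ∨ L i b = m i) ∧ (L i a = 0 ∨ L' i a = m i) := by
    intro i hi
    constructor
    · by_contra hcon
      rw [not_or] at hcon
      have hbb : b < b0 := by
        rcases eq_or_lt_of_le hb.2 with h | h
        · exact absurd (h ▸ (hLb i).1) hcon.2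
        · exact h
      have hL'pos : 0 < L' i b := lt_of_le_of_ne (hLr' i b hb).1 (Ne.symm hcon.1)
      have hLlt : L i b < m i := lt_of_le_of_ne (hLr i b hb).2 hcon.2
      obtain ⟨h0, h0pos, hh0⟩ := hup i b ⟨lt_of_le_of_lt ha.1 hlt, hbb⟩ hL'pos hLlt
      set h : ℝ := min h0 (min (b - a) (b0 - b)) with hh
      have hpos : 0 < h := lt_min h0pos (lt_min (by linarith) (by linarith))
      have hh1 : h ≤ h0 := min_le_left _ _
      have hh2 : h ≤ b - a := (min_le_right _ _).trans (min_le_left _ _)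
      have hh3 : h ≤ b0 - b := (min_le_right _ _).trans (min_le_right _ _)
      have e0 := hWrow a b ha.1 hable hb.2 i
      have e1 := hWrow a (b + h) ha.1 (by linarith) (by linarith) i
      have e2 := hWrow a (b - h) ha.1 (by linarith) (by linarith [hb.2]) i
      have l1 := hle a (b + h) (t i) ha.1 (by linarith) (by linarith) (htmem i)
      have l2 := hle a (b - h) (t i) ha.1 (by linarith) (by linarith [hb.2]) (htmem i)
      have hbp : b + h ∈ Icc a0 b0 := ⟨by linarith [hb.1], by linarith⟩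
      have hbm : b - h ∈ Icc a0 b0 := ⟨by linarith [ha.1], by linarith [hb.2]⟩
      have s1 : (∫ s in a..b, p i s) + ∫ s in b..(b + h), p i s = ∫ s in a..(b + h), p i s :=
        intervalIntegral.integral_add_adjacent_intervals
          (intervalIntegrable_sub hab' (hp i) ha hb) (intervalIntegrable_sub hab' (hp i) hb hbp)
      have s2 : (∫ s in a..(b - h), p i s) + ∫ s in (b - h)..b, p i s = ∫ s in a..b, p i s :=
        intervalIntegral.integral_add_adjacent_intervals
          (intervalIntegrable_sub hab' (hp i) ha hbm) (intervalIntegrable_sub hab' (hp i) hbm hb)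
      have s3 := sym_diff_lower (f := p i) (x := b) (h := h) (dl := dl) hab' (hp i) hpos.le
        hbm.1 hbp.2 (fun s hs => hh0 s ⟨hs.1, hs.2.trans hh1⟩)
      have s4 : θ (b + h - a) + θ (b - h - a) - 2 * θ (b - a) = - h ^ 2 := by
        simp only [hθ]; ring
      have s5 : dl' * θ (b + h - a) + dl' * θ (b - h - a) - 2 * (dl' * θ (b - a))
          = - (dl' * h ^ 2) := by linear_combination dl' * s4
      have h2pos : dl * h ^ 2 < dl' * h ^ 2 := mul_lt_mul_of_pos_right hdl (by positivity)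
      linarith
    · by_contra hcon
      rw [not_or] at hcon
      have haa : a0 < a := by
        rcases eq_or_lt_of_le ha.1 with h | h
        · exact absurd (h ▸ (hLa i).1) hcon.1
        · exact h
      have hLpos : 0 < L i a := lt_of_le_of_ne (hLr i a ha).1 (Ne.symm hcon.1)
      have hL'lt : L' i a < m i := lt_of_le_of_ne (hLr' i a ha).2 hcon.2
      obtain ⟨h0, h0pos, hh0⟩ := hdn i a ⟨haa, lt_of_lt_of_le hlt hb.2⟩ hLpos hL'lt
      set h : ℝ := min h0 (min (b - a) (a - a0)) with hh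
      have hpos : 0 < h := lt_min h0pos (lt_min (by linarith) (by linarith))
      have hh1 : h ≤ h0 := min_le_left _ _
      have hh2 : h ≤ b - a := (min_le_right _ _).trans (min_le_left _ _)
      have hh3 : h ≤ a - a0 := (min_le_right _ _).trans (min_le_right _ _)
      have e0 := hWrow a b ha.1 hable hb.2 i
      have e1 := hWrow (a + h) b (by linarith) (by linarith) hb.2 i
      have e2 := hWrow (a - h) b (by linarith) (by linarith) hb.2 i
      have l1 := hle (a + h) b (t i) (by linarith) (by linarith) hb.2 (htmem i)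
      have l2 := hle (a - h) b (t i) (by linarith) (by linarith) hb.2 (htmem i)
      have hap : a + h ∈ Icc a0 b0 := ⟨by linarith [ha.1], by linarith [hb.2]⟩
      have ham : a - h ∈ Icc a0 b0 := ⟨by linarith, by linarith [ha.2]⟩
      have s1 : (∫ s in a..(a + h), p i s) + ∫ s in (a + h)..b, p i s = ∫ s in a..b, p i s :=
        intervalIntegral.integral_add_adjacent_intervals
          (intervalIntegrable_sub hab' (hp i) ha hap) (intervalIntegrable_sub hab' (hp i) hap hb)
      have s2 : (∫ s in (a - h)..a, p i s) + ∫ s in a..b, p i s = ∫ s in (a - h)..b, p i s :=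
        intervalIntegral.integral_add_adjacent_intervals
          (intervalIntegrable_sub hab' (hp i) ham ha) (intervalIntegrable_sub hab' (hp i) ha hb)
      have s3 := sym_diff_upper (f := p i) (x := a) (h := h) (dl := dl) hab' (hp i) hpos.le
        ham.1 hap.2 (fun s hs => hh0 s ⟨hs.1, hs.2.trans hh1⟩)
      have s4 : θ (b - (a + h)) + θ (b - (a - h)) - 2 * θ (b - a) = - h ^ 2 := by
        simp only [hθ]; ring
      have s5 : dl' * θ (b - (a + h)) + dl' * θ (b - (a - h)) - 2 * (dl' * θ (b - a))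
          = - (dl' * h ^ 2) := by linear_combination dl' * s4
      have h2pos : dl * h ^ 2 < dl' * h ^ 2 := mul_lt_mul_of_pos_right hdl (by positivity)
      linarith
  have hd0 : ∑ j, dd j a b = 0 := hdsum a b ha hb
  -- the bound `W a b τ ≤ M` for every real `τ`
  have hall : ∀ τ, W a b τ ≤ M := by
    intro τ
    rcases le_total τ (-R) with h1 | h1
    · have : W a b τ = W a b (-R) := by
        simp only [hW]
        congr 2
        apply Finset.sum_congr rfl
        intro j _
        have := (htmem j).1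
        rw [max_eq_right (by linarith), max_eq_right (by linarith)]
      rw [this]
      exact hle a b (-R) ha.1 hable hb.2 ⟨le_refl _, by linarith⟩
    · rcases le_total τ R with h2 | h2
      · exact hle a b τ ha.1 hable hb.2 ⟨h1, h2⟩
      · have : W a b τ = W a b R := by
          simp only [hW]
          congr 2
          have e : ∀ j, dd j a b * max (τ - t j) 0
              = dd j a b * max (R - t j) 0 + (τ - R) * dd j a b := by
            intro j
            have := (htmem j).2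
            rw [max_eq_left (by linarith), max_eq_left (by linarith)]
            ring
          rw [Finset.sum_congr rfl (fun j _ => e j), Finset.sum_add_distrib, ← Finset.mul_sum, hd0]
          ring
        rw [this]
        exact hle a b R ha.1 hable hb.2 ⟨by linarith, le_refl _⟩
  -- second differences in `τ`
  have hsd : ∀ τ h, 0 ≤ h → W a b (τ + h) + W a b (τ - h) - 2 * W a b τ
      = - ∑ j, dd j a b * max (h - |τ - t j|) 0 := by
    intro τ h hh
    simp only [hW]
    have e : ∀ j, dd j a b * max (h - |τ - t j|) 0 = dd j a b * max (τ + h - t j) 0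
        + dd j a b * max (τ - h - t j) 0 - 2 * (dd j a b * max (τ - t j) 0) := by
      intro j
      rw [← pospart_second_diff (τ - t j) h hh]
      rw [show τ - t j + h = τ + h - t j by ring, show τ - t j - h = τ - h - t j by ring]
      ring
    rw [Finset.sum_congr rfl (fun j _ => e j), Finset.sum_sub_distrib, Finset.sum_add_distrib,
      ← Finset.mul_sum]
    ring
  -- the set of maximum points in `τ` is clopen
  set Z : Set ℝ := {τ | W a b τ = M} with hZ
  have hWcτ : Continuous (fun τ => W a b τ) := by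
    simp only [hW]
    fun_prop
  have hZclosed : IsClosed Z := isClosed_eq hWcτ continuous_const
  have hZopen : IsOpen Z := by
    rw [Metric.isOpen_iff]
    intro τ hτ
    have hfin : (Set.range t \ {τ}).Finite := (Set.finite_range t).subset sdiff_subset
    have hopen : IsOpen (Set.range t \ {τ})ᶜ := hfin.isClosed.isOpen_compl
    obtain ⟨ε, εpos, hε⟩ := Metric.isOpen_iff.1 hopen τ (by simp)
    have hfar : ∀ j, t j ≠ τ → ε ≤ |τ - t j| := by
      intro j hj
      by_contra hlt'
      have : t j ∈ Metric.ball τ ε := by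
        rw [Metric.mem_ball, Real.dist_eq, abs_sub_comm]; exact not_le.1 hlt'
      exact hε this ⟨Set.mem_range_self j, hj⟩
    have hboth : ∀ h, 0 ≤ h → h < ε → W a b (τ + h) = M ∧ W a b (τ - h) = M := by
      intro h hh hhε
      have hs := hsd τ h hh
      have hnonpos : ∑ j, dd j a b * max (h - |τ - t j|) 0 ≤ 0 := by
        apply Finset.sum_nonpos
        intro j _
        by_cases hj : t j = τ
        · have hk := key j (by rw [hj]; exact hτ)
          have hdj : dd j a b ≤ 0 := by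
            simp only [hdd]
            have r1 := hLr j a ha
            have r2 := hLr j b hb
            have r3 := hLr' j a ha
            have r4 := hLr' j b hb
            rcases hk.1 with k1 | k1 <;> rcases hk.2 with k2 | k2 <;> linarith
          exact mul_nonpos_of_nonpos_of_nonneg hdj (le_max_right _ _)
        · rw [max_eq_right (by linarith [hfar j hj]), mul_zero]
      have h1 := hall (τ + h)
      have h2 := hall (τ - h)
      have h3 : W a b τ = M := hτ
      constructor <;> linarith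
    refine ⟨ε, εpos, ?_⟩
    intro τ' hτ'
    rw [Metric.mem_ball, Real.dist_eq] at hτ'
    rcases le_total τ τ' with h1 | h1
    · have := (hboth (τ' - τ) (by linarith) (by rwa [abs_of_nonneg (by linarith)] at hτ')).1
      rwa [show τ + (τ' - τ) = τ' by ring] at this
    · have := (hboth (τ - τ') (by linarith) (by
        rw [abs_of_nonpos (by linarith)] at hτ'; linarith)).2
      rwa [show τ - (τ - τ') = τ' by ring] at this
  have hZuniv : Z = univ := IsClopen.eq_univ ⟨hZclosed, hZopen⟩ ⟨τs, rfl⟩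
  have hrow : ∀ i, W a b (t i) = M := fun i => by
    have : t i ∈ Z := by rw [hZuniv]; trivial
    exact this
  -- final contradiction
  by_cases hbb : b = b0
  · have haa : a0 < a := by
      rcases eq_or_lt_of_le ha.1 with h | h
      · exact absurd ⟨h.symm, hbb⟩ hnot
      · exact h
    have hlei : ∀ i ∈ Finset.univ, L i a ≤ L' i a := by
      intro i _
      have r1 := hLr i a ha
      have r3 := hLr' i a ha
      rcases (key i (hrow i)).2 with k | k <;> linarith
    have heq := (Finset.sum_eq_sum_iff_of_le hlei).1 (hsum a ha)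
    obtain ⟨i, hi1, hi2⟩ := hN a ⟨haa, lt_of_lt_of_le hlt hb.2⟩
    have hi3 := heq i (Finset.mem_univ i)
    rcases (key i (hrow i)).2 with k | k <;> linarith
  · have hbb' : b < b0 := lt_of_le_of_ne hb.2 hbb
    have hlei : ∀ i ∈ Finset.univ, L' i b ≤ L i b := by
      intro i _
      have r1 := hLr i b hb
      have r3 := hLr' i b hb
      rcases (key i (hrow i)).1 with k | k <;> linarith
    have heq := (Finset.sum_eq_sum_iff_of_le hlei).1 (hsum b hb).symm
    obtain ⟨i, hi1, hi2⟩ := hN b ⟨lt_of_le_of_lt ha.1 hlt, hbb'⟩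
    have hi3 := heq i (Finset.mem_univ i)
    rcases (key i (hrow i)).1 with k | k <;> linarith

/-- **Two-point maximum principle.**  `L i c`, `L' i c` are the masses of the `i`-th cells to the
left of the vertical line at `c`, `p i` the difference of the sliced Legendre transforms at the
row `t i`, and `p0` the same difference below all rows. -/
theorem two_point_max {ι : Type*} [Fintype ι] (t m : ι → ℝ) (L L' : ι → ℝ → ℝ)
    (p : ι → ℝ → ℝ) (p0 : ℝ → ℝ) {a0 b0 dl : ℝ} (hab : a0 < b0)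
    (hp0 : IntervalIntegrable p0 volume a0 b0) (hp : ∀ i, IntervalIntegrable (p i) volume a0 b0)
    (hLc : ∀ i, ContinuousOn (L i) (Icc a0 b0)) (hLc' : ∀ i, ContinuousOn (L' i) (Icc a0 b0))
    (hLr : ∀ i, ∀ x ∈ Icc a0 b0, 0 ≤ L i x ∧ L i x ≤ m i)
    (hLr' : ∀ i, ∀ x ∈ Icc a0 b0, 0 ≤ L' i x ∧ L' i x ≤ m i)
    (hLa : ∀ i, L i a0 = 0 ∧ L' i a0 = 0) (hLb : ∀ i, L i b0 = m i ∧ L' i b0 = m i)
    (hsum : ∀ x ∈ Icc a0 b0, ∑ i, L i x = ∑ i, L' i x)
    (hQ : ∀ a b, a0 ≤ a → a ≤ b → b ≤ b0 → ∀ i, ∫ s in a..b, p i s =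
      (∫ s in a..b, p0 s) - ∑ j, ((L' j b - L' j a) - (L j b - L j a)) * max (t i - t j) 0)
    (hup : ∀ i, ∀ x ∈ Ioo a0 b0, 0 < L' i x → L i x < m i →
      ∃ h0 > 0, ∀ s ∈ Ioc 0 h0, -(2 * dl * s) ≤ p i (x + s) - p i (x - s))
    (hdn : ∀ i, ∀ x ∈ Ioo a0 b0, 0 < L i x → L' i x < m i →
      ∃ h0 > 0, ∀ s ∈ Ioc 0 h0, p i (x + s) - p i (x - s) ≤ 2 * dl * s)
    (hN : ∀ x ∈ Ioo a0 b0, ∃ i, 0 < L i x ∧ L i x < m i)
    (hnorm : ∫ s in a0..b0, p0 s = 0) :
    ∀ i a b, a0 ≤ a → a ≤ b → b ≤ b0 →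
      ∫ s in a..b, p i s ≤ dl * ((b - a) * ((b0 - a0) - (b - a)) / 2) := by
  intro i a b h1 h2 h3
  set θ : ℝ := (b - a) * ((b0 - a0) - (b - a)) / 2 with hθ
  have hθ0 : 0 ≤ θ := by
    have : 0 ≤ (b - a) * ((b0 - a0) - (b - a)) :=
      mul_nonneg (by linarith) (by linarith)
    simp only [hθ]; linarith
  apply le_of_forall_pos_le_add
  intro ε hε
  have hpos : 0 < ε / (θ + 1) := div_pos hε (by linarith)
  have := two_point_max_aux t m L L' p p0 (dl := dl) (dl' := dl + ε / (θ + 1)) hab (by linarith)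
    hp0 hp hLc hLc' hLr hLr' hLa hLb hsum hQ hup hdn hN hnorm i a b h1 h2 h3
  have h4 : ε / (θ + 1) * θ ≤ ε := by
    rw [div_mul_eq_mul_div, div_le_iff₀ (by linarith)]
    nlinarith
  calc ∫ s in a..b, p i s ≤ (dl + ε / (θ + 1)) * θ := this
    _ = dl * θ + ε / (θ + 1) * θ := by ring
    _ ≤ dl * θ + ε := by linarith

/-- Two-sided version. -/
theorem two_point_abs {ι : Type*} [Fintype ι] (t m : ι → ℝ) (L L' : ι → ℝ → ℝ)
    (p : ι → ℝ → ℝ) (p0 : ℝ → ℝ) {a0 b0 dl : ℝ} (hab : a0 < b0)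
    (hp0 : IntervalIntegrable p0 volume a0 b0) (hp : ∀ i, IntervalIntegrable (p i) volume a0 b0)
    (hLc : ∀ i, ContinuousOn (L i) (Icc a0 b0)) (hLc' : ∀ i, ContinuousOn (L' i) (Icc a0 b0))
    (hLr : ∀ i, ∀ x ∈ Icc a0 b0, 0 ≤ L i x ∧ L i x ≤ m i)
    (hLr' : ∀ i, ∀ x ∈ Icc a0 b0, 0 ≤ L' i x ∧ L' i x ≤ m i)
    (hLa : ∀ i, L i a0 = 0 ∧ L' i a0 = 0) (hLb : ∀ i, L i b0 = m i ∧ L' i b0 = m i)
    (hsum : ∀ x ∈ Icc a0 b0, ∑ i, L i x = ∑ i, L' i x)
    (hQ : ∀ a b, a0 ≤ a → a ≤ b → b ≤ b0 → ∀ i, ∫ s in a..b, p i s =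
      (∫ s in a..b, p0 s) - ∑ j, ((L' j b - L' j a) - (L j b - L j a)) * max (t i - t j) 0)
    (hup : ∀ i, ∀ x ∈ Ioo a0 b0, 0 < L' i x → L i x < m i →
      ∃ h0 > 0, ∀ s ∈ Ioc 0 h0, -(2 * dl * s) ≤ p i (x + s) - p i (x - s))
    (hdn : ∀ i, ∀ x ∈ Ioo a0 b0, 0 < L i x → L' i x < m i →
      ∃ h0 > 0, ∀ s ∈ Ioc 0 h0, p i (x + s) - p i (x - s) ≤ 2 * dl * s)
    (hN : ∀ x ∈ Ioo a0 b0, ∃ i, 0 < L i x ∧ L i x < m i)
    (hN' : ∀ x ∈ Ioo a0 b0, ∃ i, 0 < L' i x ∧ L' i x < m i)
    (hnorm : ∫ s in a0..b0, p0 s = 0) :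
    ∀ i a b, a0 ≤ a → a ≤ b → b ≤ b0 →
      |∫ s in a..b, p i s| ≤ dl * ((b - a) * ((b0 - a0) - (b - a)) / 2) := by
  intro i a b h1 h2 h3
  rw [abs_le]
  constructor
  · have := two_point_max t m L' L (fun i s => - p i s) (fun s => - p0 s) (dl := dl) hab
      hp0.neg (fun i => (hp i).neg) hLc' hLc hLr' hLr (fun i => ⟨(hLa i).2, (hLa i).1⟩)
      (fun i => ⟨(hLb i).2, (hLb i).1⟩) (fun x hx => (hsum x hx).symm)
      (by
        intro a b h1 h2 h3 i
        rw [intervalIntegral.integral_neg, intervalIntegral.integral_neg, hQ a b h1 h2 h3 i]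
        have : ∑ j, ((L j b - L j a) - (L' j b - L' j a)) * max (t i - t j) 0
            = - ∑ j, ((L' j b - L' j a) - (L j b - L j a)) * max (t i - t j) 0 := by
          rw [← Finset.sum_neg_distrib]
          apply Finset.sum_congr rfl
          intro j _
          ring
        rw [this]; ring)
      (by
        intro i x hx h4 h5
        obtain ⟨h0, h0pos, hh⟩ := hdn i x hx h4 h5
        exact ⟨h0, h0pos, fun s hs => by have := hh s hs; linarith⟩)
      (by
        intro i x hx h4 h5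
        obtain ⟨h0, h0pos, hh⟩ := hup i x hx h4 h5
        exact ⟨h0, h0pos, fun s hs => by have := hh s hs; linarith⟩)
      hN' (by rw [intervalIntegral.integral_neg, hnorm, neg_zero]) i a b h1 h2 h3
    rw [intervalIntegral.integral_neg] at this
    linarith
  · exact two_point_max t m L L' p p0 hab hp0 hp hLc hLc' hLr hLr' hLa hLb hsum hQ hup hdn hN hnorm
      i a b h1 h2 h3

/-- From the integrated bound to a pointwise bound at continuity points. -/
theorem pointwise_of_integral_bound {f : ℝ → ℝ} {a0 b0 dl x : ℝ} (hdl : 0 ≤ dl)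
    (hx : x ∈ Ioo a0 b0) (hc : ContinuousAt f x) (hf : IntervalIntegrable f volume a0 b0)
    (h : ∀ a b, a0 ≤ a → a ≤ b → b ≤ b0 →
      ∫ s in a..b, f s ≤ dl * ((b - a) * ((b0 - a0) - (b - a)) / 2)) :
    f x ≤ dl * (b0 - a0) / 2 := by
  by_contra hcon
  replace hcon := not_le.1 hcon
  have hab : a0 ≤ b0 := (hx.1.trans hx.2).le
  set c : ℝ := dl * (b0 - a0) / 2 with hcdef
  obtain ⟨r, rpos, hr⟩ := Metric.continuousAt_iff.1 hc ((f x - c) / 2) (by linarith)
  set k : ℝ := min (r / 2) (b0 - x) with hk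
  have kpos : 0 < k := lt_min (by linarith) (by linarith [hx.2])
  have k1 : k ≤ r / 2 := min_le_left _ _
  have k2 : k ≤ b0 - x := min_le_right _ _
  have hxI : x ∈ Icc a0 b0 := ⟨hx.1.le, hx.2.le⟩
  have hxk : x + k ∈ Icc a0 b0 := ⟨by linarith [hx.1], by linarith⟩
  have hlow : ∫ s in x..(x + k), ((f x + c) / 2) ≤ ∫ s in x..(x + k), f s := by
    apply intervalIntegral.integral_mono_on (by linarith) (by simp)
      (intervalIntegrable_sub hab hf hxI hxk)
    intro s hs
    have : dist s x < r := by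
      rw [Real.dist_eq, abs_of_nonneg (by linarith [hs.1])]; linarith [hs.2]
    have := hr this
    rw [Real.dist_eq] at this
    have := (abs_lt.1 this).1
    linarith
  rw [intervalIntegral.integral_const] at hlow
  have hupb := h x (x + k) hx.1.le (by linarith) hxk.2
  have e1 : x + k - x = k := by ring
  rw [e1] at hupb hlow
  simp only [smul_eq_mul] at hlow
  have : dl * (k * ((b0 - a0) - k) / 2) ≤ k * c := by
    simp only [hcdef]
    have : 0 ≤ dl * k * k := by positivity
    nlinarith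
  have h5 : k * c < k * ((f x + c) / 2) := mul_lt_mul_of_pos_left (by linarith) kpos
  linarith

end Vale.Agent.Lib.P074e
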