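import Vale.Agent.Lib.P074q.Defs

open MeasureTheory ENNReal
open scoped NNReal RealInnerProductSpace

namespace Vale.Agent.Lib.P074e
open Vale.Agent.Lib.P074q

variable {d : ℕ}

/-- integral over a large subset of `K` is close to the integral over `K`. -/
lemma sub_integral_le {K s : Set (E d)} (hs : MeasurableSet s)
    (hKfin : volume K ≠ ⊤) (hsK : s ⊆ K) {f : E d → ℝ} (hf : Measurable f) {B : ℝ}
    (hB : ∀ᵐ x ∂(volume.restrict K), |f x| ≤ B) :
    |(∫ x in K, f x) - ∫ x in s, f x| ≤ B * ((volume K).toReal - (volume s).toReal) := by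
  have hfi : IntegrableOn f K volume := by
    have : IsFiniteMeasure (volume.restrict K) := ⟨by simpa using hKfin.lt_top⟩
    exact Integrable.of_bound hf.aestronglyMeasurable B
      (hB.mono (fun x hx => by rwa [Real.norm_eq_abs]))
  have h1 := setIntegral_sdiff hs hfi hsK
  rw [← h1]
  have hfin : volume (K \ s) < ⊤ := lt_of_le_of_lt (measure_mono Set.sdiff_subset) hKfin.lt_top
  have hB' : ∀ᵐ x ∂(volume.restrict (K \ s)), ‖f x‖ ≤ B := by
    have := ae_restrict_of_ae_restrict_of_subset (Set.sdiff_subset : K \ s ⊆ K) hB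
    exact this.mono (fun x hx => by rwa [Real.norm_eq_abs])
  have h2 := norm_setIntegral_le_of_norm_le_const_ae hfin hB'
  have hsfin : volume s ≠ ⊤ := ((measure_mono hsK).trans_lt hKfin.lt_top).ne
  have h3 : (volume (K \ s)).toReal = (volume K).toReal - (volume s).toReal := by
    rw [measure_sdiff hsK hs.nullMeasurableSet hsfin, ENNReal.toReal_sub_of_le (measure_mono hsK) hKfin]
  rw [Real.norm_eq_abs] at h2
  simpa [Measure.real, h3] using h2

/-- Shifting a large subset `A` of `K` inside `K` changes integrals of bounded functions little. -/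
lemma shift_diff {K A : Set (E d)} (hA : MeasurableSet A) (hKfin : volume K ≠ ⊤)
    (w : E d) (hAK : A ⊆ K) (hAw : ∀ x ∈ A, x + w ∈ K) {f : E d → ℝ} (hf : Measurable f) {B : ℝ}
    (hB : ∀ᵐ x ∂(volume.restrict K), |f x| ≤ B) :
    |(∫ x in A, f (x + w)) - ∫ x in A, f x| ≤
      2 * B * ((volume K).toReal - (volume A).toReal) := by
  set s : Set (E d) := (fun y => y - w) ⁻¹' A with hs
  have hsm : MeasurableSet s := (measurable_sub_const w) hA
  have hsK : s ⊆ K := by
    intro y hy
    have := hAw (y - w) hy
    simpa using this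
  have hpre : (fun x => x + w) ⁻¹' s = A := by
    ext x; simp [hs]
  have hvol : volume s = volume A := by
    simp only [hs, sub_eq_add_neg]
    exact measure_preimage_add_right volume (-w) A
  have h1 : ∫ x in A, f (x + w) = ∫ y in s, f y := by
    have := (measurePreserving_add_right (volume : Measure (E d)) w).setIntegral_preimage_emb
      (measurableEmbedding_addRight w) f s
    rw [hpre] at this
    exact this
  have h2 := sub_integral_le hsm hKfin hsK hf hB
  have h3 := sub_integral_le hA hKfin hAK hf hB
  rw [hvol] at h2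
  rw [h1]
  rw [abs_le] at h2 h3 ⊢
  constructor <;> linarith [h2.1, h2.2, h3.1, h3.2]

end Vale.Agent.Lib.P074e
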